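import Vale.Agent.P207.Q.H222.Func

/-!
# P207: 2 x 2 linear algebra with jets: inverse and log-determinant of a symmetric matrix
-/

open Filter Topology

noncomputable section

namespace Vale.Agent.P207.Q.H471

open Vale.Agent.P207.Q.H413

variable {P : Type*} [TopologicalSpace P] [CompactSpace P] {I : C(P, ℝ) →L[ℝ] ℝ} {c : Cal I}

/-- the determinant of a symmetric `2 × 2` matrix -/
def detS (S : Fin 2 → Fin 2 → C(P, ℝ)) : C(P, ℝ) := S 0 0 * S 1 1 - S 0 1 * S 0 1

/-- its derivatives -/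
def ddetS (S : Fin 2 → Fin 2 → C(P, ℝ)) (dS : Fin 2 → Fin 2 → Idx → C(P, ℝ)) (k : Idx) :
    C(P, ℝ) :=
  S 0 0 * dS 1 1 k + S 1 1 * dS 0 0 k - (S 0 1 * dS 0 1 k + S 0 1 * dS 0 1 k)

theorem jet_detS {S : Fin 2 → Fin 2 → C(P, ℝ)} {dS : Fin 2 → Fin 2 → Idx → C(P, ℝ)}
    (jS : ∀ i j, Jet c (S i j) (dS i j)) : Jet c (detS S) (ddetS S dS) :=
  ((jS 0 0).mul (jS 1 1)).sub ((jS 0 1).mul (jS 0 1))

/-- **Inverse and logarithm of the determinant.** -/
theorem exists_inverse {S : Fin 2 → Fin 2 → C(P, ℝ)} {dS : Fin 2 → Fin 2 → Idx → C(P, ℝ)}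
    (jS : ∀ i j, Jet c (S i j) (dS i j)) (symS : S 1 0 = S 0 1)
    (symdS : ∀ k, dS 1 0 k = dS 0 1 k) (hdet : ∀ x, 0 < S 0 0 x * S 1 1 x - S 0 1 x * S 0 1 x) :
    ∃ (T : Fin 2 → Fin 2 → C(P, ℝ)) (L : C(P, ℝ)),
      T 1 0 = T 0 1 ∧
      (∀ i l, ∑ j, T i j * S j l = if i = l then 1 else 0) ∧
      (∀ i l, ∑ j, S i j * T j l = if i = l then 1 else 0) ∧
      (∀ i j, Jet c (T i j) (fun k => - ∑ a, ∑ b, T i a * dS a b k * T b j)) ∧
      (∀ x, L x = Real.log (S 0 0 x * S 1 1 x - S 0 1 x * S 0 1 x)) ∧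
      Jet c L (fun k => ∑ i, ∑ j, T i j * dS i j k) := by
  have hd : ∀ x, 0 < detS S x := fun x => by
    simpa [detS] using hdet x
  let q : C(P, ℝ) := ⟨fun x => (detS S x)⁻¹, (detS S).continuous.inv₀ fun x => (hd x).ne'⟩
  let L : C(P, ℝ) := ⟨fun x => Real.log (detS S x),
    (detS S).continuous.log fun x => (hd x).ne'⟩
  have hq : ∀ x, q x = (detS S x)⁻¹ := fun x => rfl
  have hL : ∀ x, L x = Real.log (detS S x) := fun x => rfl
  have hq1 : q * detS S = 1 := by
    ext x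
    simp [hq, inv_mul_cancel₀ (hd x).ne']
  have jq := (jet_detS jS).invPos hd hq
  have jL := (jet_detS jS).logPos hd hL hq
  refine ⟨fun i j => if i = 0 then (if j = 0 then q * S 1 1 else - (q * S 0 1))
    else (if j = 0 then - (q * S 0 1) else q * S 0 0), L, by simp, ?_, ?_, ?_, ?_, ?_⟩
  · intro i l
    have e : q * (S 0 0 * S 1 1 - S 0 1 * S 0 1) = 1 := hq1
    fin_cases i <;> fin_cases l <;> simp [Fin.sum_univ_two, symS] <;>
      first | linear_combination e | ring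
  · intro i l
    have e : q * (S 0 0 * S 1 1 - S 0 1 * S 0 1) = 1 := hq1
    fin_cases i <;> fin_cases l <;> simp [Fin.sum_univ_two, symS] <;>
      first | linear_combination e | ring
  · have e : q * (S 0 0 * S 1 1 - S 0 1 * S 0 1) = 1 := hq1
    intro i j
    fin_cases i <;> fin_cases j
    · refine ((jq.mul (jS 1 1))).congr (by simp) fun k => ?_
      simp [Fin.sum_univ_two, symdS, ddetS]
      linear_combination (- q * dS 1 1 k) * e
    · refine ((jq.mul (jS 0 1))).negR.congr (by simp) fun k => ?_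
      simp [Fin.sum_univ_two, symdS, ddetS]
      linear_combination (q * dS 0 1 k) * e
    · refine ((jq.mul (jS 0 1))).negR.congr (by simp) fun k => ?_
      simp [Fin.sum_univ_two, symdS, ddetS]
      linear_combination (q * dS 0 1 k) * e
    · refine ((jq.mul (jS 0 0))).congr (by simp) fun k => ?_
      simp [Fin.sum_univ_two, symdS, ddetS]
      linear_combination (- q * dS 0 0 k) * e
  · intro x
    rw [hL]
    simp [detS]
  · refine jL.congr rfl fun k => ?_
    simp [Fin.sum_univ_two, symdS, ddetS]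
    ring

end Vale.Agent.P207.Q.H471
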