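import Vale.Agent.P207.Q.H892.PEq

/-!
# P207: the unstable derivatives of the transfer function: `G = - p`

`D_i = H_i + Σ_l U_il V_l`.  For jets invariant under `R`, `X D_i f = D_i X f - Σ_j U_ij D_j f`.
If `G_i` is the limit of `D_i l_n` where `X l_n = t - t_n` and `D_i t_n → 0`, then
`X G_i = D_i t - Σ_j U_ij G_j`; as `p_i = Σ_j V_j U_ij` satisfies `X p_i = - D_i t - Σ_j U_ij p_j`,
positivity of `U` gives `G_i = - p_i`.
-/

open Filter Topology MeasureTheory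

noncomputable section

namespace Vale.Agent.P207.Q.H471

open Vale.Agent.P207.Q.H413 Vale.Agent.P207.Q.H892

section Abs

variable {A : Type*} [NormedCommRing A] [NormedAlgebra ℝ A] {I : A →L[ℝ] ℝ}

/-- `D_i f` in terms of the first derivatives `d` of `f` -/
def Du (U : Fin 2 → Fin 2 → A) (d : Idx → A) (i : Fin 2) : A :=
  d (.H i) + ∑ l, U i l * d (.V l)

theorem wx_of_tendsto {c : Cal I} {F F' : A} {G G' : ℕ → A} (h : ∀ n, WX c (G n) (G' n))
    (hG : Tendsto G atTop (𝓝 F)) (hG' : Tendsto G' atTop (𝓝 F')) : WX c F F' := by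
  intro s
  have h1 : Tendsto (fun n => I (G n * (c.Y .X s : c.S))) atTop (𝓝 (I (F * (c.Y .X s : c.S)))) :=
    (I.continuous.tendsto _).comp (hG.mul_const _)
  have h2 : Tendsto (fun n => - I (G' n * s)) atTop (𝓝 (- I (F' * s))) :=
    ((I.continuous.tendsto _).comp (hG'.mul_const _)).neg
  exact tendsto_nhds_unique h1 (h2.congr fun n => (h n s).symm)

theorem wx_neg {c : Cal I} {F F' : A} (h : WX c F F') : WX c (- F) (- F') := by
  intro s
  have h1 := h s
  rw [neg_mul, neg_mul, map_neg, map_neg, h1]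

variable {c : Cal I} (C : Curv c) {U : Fin 2 → Fin 2 → A} {dU : Fin 2 → Fin 2 → Idx → A}
  {f : A} {d e : Idx → A}

include C in
/-- `X D_i f = D_i X f - Σ_j U_ij D_j f` for jets `f` invariant under `R` -/
theorem wx_D (jU : ∀ i j, Jet c (U i j) (dU i j)) (symU : U 1 0 = U 0 1)
    (ric : ∀ i j, dU i j .X = C.K i j - ∑ k, U i k * U k j)
    (hf : Jet c f d) (hX : Jet c (d .X) e) (hR : d .R = 0) (i : Fin 2) :
    WX c (Du U d i) (Du U e i - ∑ j, U i j * Du U d j) := by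
  have r0 : dU 0 0 .X = C.E22 - (U 0 0 * U 0 0 + U 0 1 * U 0 1) := by
    rw [ric]; simp [Curv.K, Fin.sum_univ_two, symU]
  have r1 : dU 0 1 .X = ((- C.E12 : c.S) : A) - (U 0 0 * U 0 1 + U 0 1 * U 1 1) := by
    rw [ric]; simp [Curv.K, Fin.sum_univ_two]
  have r2 : dU 1 1 .X = C.E11 - (U 0 1 * U 0 1 + U 1 1 * U 1 1) := by
    rw [ric]; simp [Curv.K, Fin.sum_univ_two, symU]
  have J0 := jU 0 0
  have J1 := jU 0 1
  have J2 := jU 1 1
  fin_cases i
  · refine wx_congr (wx_add (wx_H0 C hf hX) (wx_add (wx_jet_mul J0 (wx_V hf hX 0))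
      (wx_jet_mul J1 (wx_V hf hX 1)))) (by simp [Du, Fin.sum_univ_two]) ?_
    simp only [Du, Fin.sum_univ_two, Fin.zero_eta, symU, r0, r1, hR, NegMemClass.coe_neg]
    ring
  · refine wx_congr (wx_add (wx_H1 C hf hX) (wx_add (wx_jet_mul J1 (wx_V hf hX 0))
      (wx_jet_mul J2 (wx_V hf hX 1)))) (by simp [Du, Fin.sum_univ_two, symU]) ?_
    simp only [Du, Fin.sum_univ_two, Fin.mk_one, symU, r2, r1, hR, NegMemClass.coe_neg]
    ring

include C in
/-- the equation of the limit `G` of the unstable derivatives of `l_n`, `X l_n = t - t_n` -/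
theorem wx_G (jU : ∀ i j, Jet c (U i j) (dU i j)) (symU : U 1 0 = U 0 1)
    (ric : ∀ i j, dU i j .X = C.K i j - ∑ k, U i k * U k j)
    {t : A} {dt : Idx → A} (jt : Jet c t dt)
    {l : ℕ → A} {dl : ℕ → Idx → A} (jl : ∀ n, Jet c (l n) (dl n)) (lR : ∀ n, dl n .R = 0)
    {tn : ℕ → A} {dtn : ℕ → Idx → A} (jtn : ∀ n, Jet c (tn n) (dtn n))
    (lX : ∀ n, dl n .X = t - tn n)
    {G : Fin 2 → A} (hG : ∀ i, Tendsto (fun n => Du U (dl n) i) atTop (𝓝 (G i)))
    (ht : ∀ i, Tendsto (fun n => Du U (dtn n) i) atTop (𝓝 0)) (i : Fin 2) :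
    WX c (G i) (Du U dt i - ∑ j, U i j * G j) := by
  have h1 : ∀ n, Jet c (dl n .X) (fun k => dt k - dtn n k) := fun n =>
    (jt.sub (jtn n)).congr (lX n).symm fun _ => rfl
  refine wx_of_tendsto (fun n => wx_D C jU symU ric (jl n) (h1 n) (lR n) i) (hG i) ?_
  have e : (fun n => Du U (fun k => dt k - dtn n k) i - ∑ j, U i j * Du U (dl n) j) =
      fun n => (Du U dt i - Du U (dtn n) i) - ∑ j, U i j * Du U (dl n) j := by
    funext n
    simp only [Du, Fin.sum_univ_two]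
    ring
  rw [e]
  have h2 : Tendsto (fun n => (Du U dt i - Du U (dtn n) i) - ∑ j, U i j * Du U (dl n) j) atTop
      (𝓝 ((Du U dt i - 0) - ∑ j, U i j * G j)) :=
    (tendsto_const_nhds.sub (ht i)).sub
      (tendsto_finsetSum _ fun j _ => (hG j).const_mul (U i j))
  simpa using h2

end Abs

variable {P : Type*} [TopologicalSpace P] [CompactSpace P] [MeasurableSpace P] [BorelSpace P]
  {m : Measure P} [IsFiniteMeasure m]

/-- a weak solution of `X F = - U F` vanishes -/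
theorem eq_zero_of_wx [m.IsOpenPosMeasure] {c : Cal (intL m)} {U : Fin 2 → Fin 2 → C(P, ℝ)}
    (symU : U 1 0 = U 0 1) (wpx : ∀ F F' : C(P, ℝ), WX c F F' → intL m (F * F') = 0)
    {lam : ℝ} (hlam : 0 < lam)
    (hpos : ∀ x a b, lam * (a ^ 2 + b ^ 2) ≤ U 0 0 x * a ^ 2 + 2 * U 0 1 x * (a * b) +
      U 1 1 x * b ^ 2) {F : Fin 2 → C(P, ℝ)} (hF : ∀ i, WX c (F i) (- ∑ j, U i j * F j)) :
    ∀ i, F i = 0 := by
  have w0 := wpx _ _ (hF 0)
  have w1 := wpx _ _ (hF 1)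
  have key := congrArg₂ (· + ·) w0 w1
  simp only [← map_add, add_zero, Fin.sum_univ_two, symU] at key
  set Q : C(P, ℝ) := - (F 0 * (-(U 0 0 * F 0 + U 0 1 * F 1)) + F 1 * (-(U 0 1 * F 0 + U 1 1 * F 1)))
    with hQ
  have hI : ∫ x, Q x ∂m = 0 := by
    rw [← intL_apply, hQ, map_neg, key, neg_zero]
  have hQx : ∀ x, lam * (F 0 x ^ 2 + F 1 x ^ 2) ≤ Q x := by
    intro x
    have e : Q x = U 0 0 x * (F 0 x) ^ 2 + 2 * U 0 1 x * (F 0 x * F 1 x) +
        U 1 1 x * (F 1 x) ^ 2 := by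
      simp only [hQ, ContinuousMap.add_apply, ContinuousMap.neg_apply, ContinuousMap.mul_apply]
      ring
    rw [e]
    exact hpos x _ _
  have hQ0 : ∀ x, 0 ≤ Q x := fun x => le_trans (by positivity) (hQx x)
  have hz : Q = 0 := by
    have hint : Integrable (fun x => Q x) m :=
      Q.continuous.integrable_of_hasCompactSupport (HasCompactSupport.of_compactSpace _)
    have h2 := (integral_eq_zero_iff_of_nonneg hQ0 hint).1 hI
    ext x
    exact congrFun ((Continuous.ae_eq_iff_eq m Q.continuous continuous_const).1 h2) x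
  have k : ∀ x, F 0 x = 0 ∧ F 1 x = 0 := by
    intro x
    have h1 := hQx x
    rw [hz, ContinuousMap.zero_apply] at h1
    have h2 : F 0 x ^ 2 + F 1 x ^ 2 ≤ 0 := by
      by_contra hcon
      rw [not_le] at hcon
      nlinarith
    have h3 : F 0 x ^ 2 = 0 := le_antisymm (by nlinarith [sq_nonneg (F 1 x)]) (sq_nonneg _)
    have h4 : F 1 x ^ 2 = 0 := le_antisymm (by nlinarith [sq_nonneg (F 0 x)]) (sq_nonneg _)
    exact ⟨by simpa using h3, by simpa using h4⟩
  intro i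
  fin_cases i
  · ext x; exact (k x).1
  · ext x; exact (k x).2

/-- **`G = - p`.** -/
theorem eq_neg_p [m.IsOpenPosMeasure] {c : Cal (intL m)} (C : Curv c)
    {U : Fin 2 → Fin 2 → C(P, ℝ)} {dU : Fin 2 → Fin 2 → Idx → C(P, ℝ)}
    (jU : ∀ i j, Jet c (U i j) (dU i j)) (symU : U 1 0 = U 0 1) (symd : ∀ k, dU 1 0 k = dU 0 1 k)
    (ric : ∀ i j, dU i j .X = C.K i j - ∑ k, U i k * U k j)
    (R00 : dU 0 0 .R = 2 * U 0 1) (R01 : dU 0 1 .R = U 1 1 - U 0 0)
    (R11 : dU 1 1 .R = - 2 * U 0 1)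
    (wpx : ∀ F F' : C(P, ℝ), WX c F F' → intL m (F * F') = 0)
    {lam : ℝ} (hlam : 0 < lam)
    (hpos : ∀ x a b, lam * (a ^ 2 + b ^ 2) ≤ U 0 0 x * a ^ 2 + 2 * U 0 1 x * (a * b) +
      U 1 1 x * b ^ 2) {G : Fin 2 → C(P, ℝ)}
    (hG : ∀ i, WX c (G i) (Du U (fun k => dU 0 0 k + dU 1 1 k) i - ∑ j, U i j * G j))
    (i : Fin 2) : G i = - ∑ j, dU i j (.V j) := by
  have h : ∀ i, G i + ∑ j, dU i j (.V j) = 0 := by
    refine eq_zero_of_wx symU wpx hlam hpos (F := fun i => G i + ∑ j, dU i j (.V j)) fun i => ?_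
    have h1 := wx_p C jU symU symd ric R00 R01 R11 wpx hlam hpos i
    refine wx_congr (wx_add (hG i) h1) rfl ?_
    simp only [Du, Fin.sum_univ_two]
    ring
  exact eq_neg_of_add_eq_zero_left (h i)

end Vale.Agent.P207.Q.H471
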